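import Vale.Agent.Lib.P335_helper3.GMain
import Vale.Agent.Lib.P335_helper12.TupleMixing

/-!
P335 (helper19): bridge from the slot-set Poincare inequality `P335G.g_poincare` to the
tuple form of the Poincare inequality on `Omega d` consumed by `mixing_of_tuple_poincare`.
-/

set_option linter.unusedSectionVars false
set_option linter.unusedVariables false

namespace P335h19

open Finset P335h14 P335G

variable {n : ℕ}

open Classical in
/-- a graph as the finset of its edges -/
noncomputable def enc (G : SimpleGraph (Fin n)) : St (Fin n) := univ.filter (fun e => e ∈ G.edgeSet)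

theorem mem_enc (G : SimpleGraph (Fin n)) (e : Sym2 (Fin n)) : e ∈ enc G ↔ e ∈ G.edgeSet := by
  classical
  simp [enc]

/-- the graph of a slot set -/
def dec (x : St (Fin n)) : SimpleGraph (Fin n) := SimpleGraph.fromEdgeSet (x : Set (Sym2 (Fin n)))

theorem dec_adj (x : St (Fin n)) (a b : Fin n) : (dec x).Adj a b ↔ s(a, b) ∈ x ∧ a ≠ b := by
  simp [dec]

theorem dec_enc (G : SimpleGraph (Fin n)) : dec (enc G) = G := by
  ext a b
  rw [dec_adj, mem_enc, SimpleGraph.mem_edgeSet]
  constructor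
  · exact fun h => h.1
  · exact fun h => ⟨h, h.ne⟩

/-- no diagonal slot and the prescribed degrees -/
def Good (d : Fin n → ℕ) (x : St (Fin n)) : Prop := (∀ e ∈ x, ¬ e.IsDiag) ∧ ∀ v, deg x v = d v

instance (d : Fin n → ℕ) : DecidablePred (Good d) := fun x => by unfold Good; infer_instance

theorem mem_edgeSet_dec {x : St (Fin n)} (h : ∀ e ∈ x, ¬ e.IsDiag) (e : Sym2 (Fin n)) :
    e ∈ (dec x).edgeSet ↔ e ∈ x := by
  induction e using Sym2.ind with
  | _ a b =>
    rw [SimpleGraph.mem_edgeSet, dec_adj]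
    constructor
    · exact fun h => h.1
    · intro hx
      refine ⟨hx, ?_⟩
      have := h _ hx
      simpa using this

theorem enc_dec {x : St (Fin n)} (h : ∀ e ∈ x, ¬ e.IsDiag) : enc (dec x) = x := by
  ext e
  rw [mem_enc, mem_edgeSet_dec h]

theorem deg_enc (G : SimpleGraph (Fin n)) (v : Fin n) : deg (enc G) v = (G.neighborSet v).ncard := by
  classical
  have h1 : G.neighborSet v = ((univ.filter (fun w => G.Adj v w) : Finset (Fin n)) : Set (Fin n)) := by
    ext w; simp
  rw [h1, Set.ncard_coe_finset]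
  unfold deg
  have h2 : (enc G).filter (fun e => v ∈ e) = (univ.filter (fun w => G.Adj v w)).image (fun w => s(v, w)) := by
    ext e
    simp only [mem_filter, mem_enc, mem_image, mem_univ, true_and]
    constructor
    · rintro ⟨he, hv⟩
      obtain ⟨w, rfl⟩ := Sym2.mem_iff_exists.mp hv
      exact ⟨w, he, rfl⟩
    · rintro ⟨w, hw, rfl⟩
      exact ⟨hw, Sym2.mem_mk_left v w⟩
  rw [h2, card_image_of_injective]
  intro a b hab
  exact Sym2.congr_right.mp hab

theorem good_enc {d : Fin n → ℕ} (G : Omega d) : Good d (enc G.1) := by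
  refine ⟨?_, fun v => by rw [deg_enc]; exact G.2 v⟩
  intro e he
  rw [mem_enc] at he
  exact G.1.not_isDiag_of_mem_edgeSet he

theorem dec_mem {d : Fin n → ℕ} {x : St (Fin n)} (h : Good d x) (v : Fin n) :
    ((dec x).neighborSet v).ncard = d v := by
  rw [← deg_enc, enc_dec h.1]
  exact h.2 v

theorem sum_omega (d : Fin n → ℕ) (h : SimpleGraph (Fin n) → ℝ) :
    ∑ G : Omega d, h G.1 = ∑ x : St (Fin n), if Good d x then h (dec x) else 0 := by
  rw [← Finset.sum_filter]
  refine Finset.sum_bij (fun G _ => enc G.1) ?_ ?_ ?_ ?_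
  · intro G _
    exact mem_filter.mpr ⟨mem_univ _, good_enc G⟩
  · intro G _ G' _ hh
    apply Subtype.ext
    rw [← dec_enc G.1, ← dec_enc G'.1, hh]
  · intro x hx
    have hg := (mem_filter.mp hx).2
    exact ⟨⟨dec x, dec_mem hg⟩, mem_univ _, enc_dec hg.1⟩
  · intro G _
    rw [dec_enc]

theorem good_of_grel {d : Fin n → ℕ} {A : Finset (Sym2 (Fin n))} (hA : ∀ e ∈ A, ¬ e.IsDiag)
    {x y : St (Fin n)} (h : GRel A x y) (hx : Good d x) : Good d y := by
  refine ⟨?_, fun v => by rw [← h.2 v]; exact hx.2 v⟩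
  intro e he hd
  have h1 : e ∈ y \ A := mem_sdiff.mpr ⟨he, fun h' => hA e h' hd⟩
  rw [← h.1] at h1
  exact hx.1 e (mem_sdiff.mp h1).1 hd

theorem grel_symm {A : Finset (Sym2 (Fin n))} {x y : St (Fin n)} (h : GRel A x y) : GRel A y x :=
  ⟨h.1.symm, fun v => (h.2 v).symm⟩

theorem good_iff_of_grel {d : Fin n → ℕ} {A : Finset (Sym2 (Fin n))} (hA : ∀ e ∈ A, ¬ e.IsDiag)
    {x y : St (Fin n)} (h : GRel A x y) : Good d x ↔ Good d y :=
  ⟨good_of_grel hA h, good_of_grel hA (grel_symm h)⟩

theorem allSlots_nd : ∀ e ∈ P335h16.allSlots (Fin n), ¬ e.IsDiag := by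
  intro e he
  simpa [P335h16.allSlots] using he

theorem grel_of_good {d : Fin n → ℕ} {x y : St (Fin n)} (hx : Good d x) (hy : Good d y) :
    GRel (P335h16.allSlots (Fin n)) x y := by
  refine ⟨?_, fun v => by rw [hx.2, hy.2]⟩
  ext e
  simp only [mem_sdiff, P335h16.allSlots, mem_filter, mem_univ, true_and, not_not]
  constructor
  · rintro ⟨h1, h2⟩; exact absurd h2 (hx.1 e h1)
  · rintro ⟨h1, h2⟩; exact absurd h2 (hy.1 e h1)

/-- extension by zero -/
noncomputable def lift (d : Fin n → ℕ) (f : SimpleGraph (Fin n) → ℝ) (x : St (Fin n)) : ℝ :=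
  if Good d x then f (dec x) else 0

theorem avg_lift {d : Fin n → ℕ} {f : SimpleGraph (Fin n) → ℝ} (hf : ∑ G : Omega d, f G.1 = 0)
    {x : St (Fin n)} (hx : Good d x) : avg (GRel (P335h16.allSlots (Fin n))) (lift d f) x = 0 := by
  unfold avg
  have h1 : univ.filter (fun y => GRel (P335h16.allSlots (Fin n)) x y) = univ.filter (Good d) := by
    ext y
    simp only [mem_filter, mem_univ, true_and]
    exact ⟨fun h => good_of_grel allSlots_nd h hx, fun h => grel_of_good hx h⟩
  rw [h1]
  have h2 : ∑ y ∈ univ.filter (Good d), lift d f y = 0 := by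
    have h3 := sum_omega d f
    rw [hf] at h3
    rw [Finset.sum_filter]
    refine Eq.trans ?_ h3.symm
    apply Finset.sum_congr rfl
    intro y _
    unfold lift
    split_ifs <;> rfl
  rw [h2, zero_div]

theorem sq_le_ip {d : Fin n → ℕ} {f : SimpleGraph (Fin n) → ℝ} (hf : ∑ G : Omega d, f G.1 = 0) :
    ∑ G : Omega d, f G.1 ^ 2 ≤
      ip (lift d f - avg (GRel (P335h16.allSlots (Fin n))) (lift d f))
        (lift d f - avg (GRel (P335h16.allSlots (Fin n))) (lift d f)) := by
  rw [sum_omega d (fun G => f G ^ 2)]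
  unfold ip
  apply Finset.sum_le_sum
  intro x _
  by_cases hx : Good d x
  · simp only [Pi.sub_apply, avg_lift hf hx, hx, if_true, lift, sub_zero]
    apply le_of_eq; ring
  · simp only [hx, if_false]
    exact mul_self_nonneg _

theorem block_nd {u v k l : Fin n} (h : P335G.Dist4 u v k l) : ∀ e ∈ block u v k l, ¬ e.IsDiag := by
  obtain ⟨huv, huk, hul, hvk, hvl, hkl⟩ := h
  intro e he
  simp only [block, mem_insert, mem_singleton] at he
  rcases he with rfl | rfl | rfl | rfl <;> simpa

theorem applyMove_dec {d : Fin n → ℕ} {x : St (Fin n)} (hx : Good d x) {u v k l : Fin n}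
    (h : P335G.SwOK x u v k l) :
    applyMove (dec x) (pmOf u k l v).1 (pmOf u k l v).2 = dec (gsw x u v k l) := by
  obtain ⟨hd, h1, h2, h3, h4⟩ := h
  obtain ⟨huv, huk, hul, hvk, hvl, hkl⟩ := hd
  unfold applyMove pmOf
  have hc : (∀ e ∈ ({s(u, k), s(l, v)} : Finset (Sym2 (Fin n))), e ∈ (dec x).edgeSet) ∧
      (∀ e ∈ ({s(u, l), s(k, v)} : Finset (Sym2 (Fin n))), e ∉ (dec x).edgeSet) := by
    constructor
    · intro e he
      rw [mem_edgeSet_dec hx.1]
      simp only [mem_insert, mem_singleton] at he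
      rcases he with rfl | rfl
      · exact h1
      · rw [Sym2.eq_swap]; exact h2
    · intro e he
      rw [mem_edgeSet_dec hx.1]
      simp only [mem_insert, mem_singleton] at he
      rcases he with rfl | rfl
      · exact h3
      · rw [Sym2.eq_swap]; exact h4
  rw [if_pos hc]
  ext a b
  simp only [SimpleGraph.sup_adj, SimpleGraph.sdiff_adj, dec_adj, SimpleGraph.fromEdgeSet_adj,
    gsw, mem_union, mem_sdiff, mem_insert, mem_singleton, coe_insert, coe_singleton,
    Set.mem_insert_iff, Set.mem_singleton_iff, Sym2.eq_swap (a := l) (b := v),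
    Sym2.eq_swap (a := k) (b := v)]
  tauto

theorem term_le {d : Fin n → ℕ} (f : SimpleGraph (Fin n) → ℝ) (x : St (Fin n)) (u v k l : Fin n) :
    (if P335G.SwOK x u v k l then (lift d f (gsw x u v k l) - lift d f x) ^ 2 else 0) ≤
      if Good d x then
        (if P335h14.Dist4 u k l v then
          (f (applyMove (dec x) (pmOf u k l v).1 (pmOf u k l v).2) - f (dec x)) ^ 2 else 0)
      else 0 := by
  by_cases hs : P335G.SwOK x u v k l
  · rw [if_pos hs]
    have hg : Good d x ↔ Good d (gsw x u v k l) := good_iff_of_grel (block_nd hs.1) (grel_gsw hs)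
    by_cases hx : Good d x
    · have hd : P335h14.Dist4 u k l v := by
        obtain ⟨huv, huk, hul, hvk, hvl, hkl⟩ := hs.1
        exact ⟨huk, hul, huv, hkl, hvk.symm, hvl.symm⟩
      rw [if_pos hx, if_pos hd, applyMove_dec hx hs]
      unfold lift
      rw [if_pos hx, if_pos (hg.mp hx)]
    · rw [if_neg hx]
      unfold lift
      rw [if_neg hx, if_neg (fun h => hx (hg.mpr h))]
      simp
  · rw [if_neg hs]
    split_ifs
    · exact sq_nonneg _
    · exact le_refl _
    · exact le_refl _

theorem gdir_le (d : Fin n → ℕ) (f : SimpleGraph (Fin n) → ℝ) :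
    gdir (lift d f) ≤ ∑ G : Omega d, ∑ a : Fin n, ∑ b : Fin n, ∑ c : Fin n, ∑ e : Fin n,
        (if P335h14.Dist4 a b c e then
          (f (applyMove G.1 (pmOf a b c e).1 (pmOf a b c e).2) - f G.1) ^ 2 else 0) := by
  rw [sum_omega d (fun G => ∑ a : Fin n, ∑ b : Fin n, ∑ c : Fin n, ∑ e : Fin n,
        (if P335h14.Dist4 a b c e then
          (f (applyMove G (pmOf a b c e).1 (pmOf a b c e).2) - f G) ^ 2 else 0))]
  unfold gdir gdir2
  have h1 : ∑ u : Fin n, ∑ v : Fin n, ∑ x : St (Fin n), ∑ k : Fin n, ∑ l : Fin n,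
      (if P335G.SwOK x u v k l then (lift d f (gsw x u v k l) - lift d f x) ^ 2 else 0)
      = ∑ x : St (Fin n), ∑ u : Fin n, ∑ k : Fin n, ∑ l : Fin n, ∑ v : Fin n,
      (if P335G.SwOK x u v k l then (lift d f (gsw x u v k l) - lift d f x) ^ 2 else 0) := by
    calc _ = ∑ u : Fin n, ∑ x : St (Fin n), ∑ v : Fin n, ∑ k : Fin n, ∑ l : Fin n,
          (if P335G.SwOK x u v k l then (lift d f (gsw x u v k l) - lift d f x) ^ 2 else 0) :=
          Finset.sum_congr rfl (fun u _ => Finset.sum_comm)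
      _ = ∑ x : St (Fin n), ∑ u : Fin n, ∑ v : Fin n, ∑ k : Fin n, ∑ l : Fin n,
          (if P335G.SwOK x u v k l then (lift d f (gsw x u v k l) - lift d f x) ^ 2 else 0) :=
          Finset.sum_comm
      _ = ∑ x : St (Fin n), ∑ u : Fin n, ∑ k : Fin n, ∑ v : Fin n, ∑ l : Fin n,
          (if P335G.SwOK x u v k l then (lift d f (gsw x u v k l) - lift d f x) ^ 2 else 0) :=
          Finset.sum_congr rfl (fun x _ => Finset.sum_congr rfl (fun u _ => Finset.sum_comm))
      _ = _ :=
          Finset.sum_congr rfl (fun x _ => Finset.sum_congr rfl (fun u _ =>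
            Finset.sum_congr rfl (fun k _ => Finset.sum_comm)))
  rw [h1]
  apply Finset.sum_le_sum
  intro x _
  by_cases hx : Good d x
  · rw [if_pos hx]
    refine Finset.sum_le_sum fun u _ => Finset.sum_le_sum fun k _ => Finset.sum_le_sum fun l _ =>
      Finset.sum_le_sum fun v _ => ?_
    have := term_le (d := d) f x u v k l
    rwa [if_pos hx] at this
  · rw [if_neg hx]
    refine Finset.sum_nonpos fun u _ => Finset.sum_nonpos fun k _ => Finset.sum_nonpos fun l _ =>
      Finset.sum_nonpos fun v _ => ?_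
    have := term_le (d := d) f x u v k l
    rwa [if_neg hx] at this

/-- the tuple form of the Poincare inequality on `Omega d`, for every degree vector -/
theorem tuple_poincare (d : Fin n → ℕ) (f : SimpleGraph (Fin n) → ℝ)
    (hf : ∑ G : Omega d, f G.1 = 0) :
    8 * ∑ G : Omega d, f G.1 ^ 2 ≤ ∑ G : Omega d, ∑ a : Fin n, ∑ b : Fin n, ∑ c : Fin n,
      ∑ e : Fin n, (if P335h14.Dist4 a b c e then
          (f (applyMove G.1 (pmOf a b c e).1 (pmOf a b c e).2) - f G.1) ^ 2 else 0) := by
  have h1 := sq_le_ip hf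
  have h2 := g_poincare (lift d f)
  have h3 := gdir_le d f
  linarith

/-- **KTV for simple graphs**: `t_mix(d) ≤ 256 n^6` for every degree vector -/
theorem ktv_mixing (hn : 4 ≤ n) (d : Fin n → ℕ) (G : Omega d) :
    tvDist d (256 * n ^ 6) G ≤ 1 / 4 := by
  apply mixing_of_tuple_poincare hn d 1 (le_refl _)
  · intro f hf
    have h1 := tuple_poincare d f hf
    have h2 : 0 ≤ ∑ G : Omega d, f G.1 ^ 2 := Finset.sum_nonneg (fun _ _ => sq_nonneg _)
    linarith
  · push_cast
    linarith

end P335h19
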